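import Vale.Agent.P091.CH.H847.Fou

/-!
# P091, TOP, row T1 (814 #12198): the real part trick

`S_N p = 2 Re [ ch (-M) · C_{M+N+1} (ch M · p) ] - p - (one character)` on the grid `X K`,
`M = 2^(K-1)`, `p` real; hence the symmetric partial sum is `2 Re` of ONE one-sided partial sum up
to `2 MX p`.
-/

open Finset

namespace Vale.Agent.P091.TOP.H39

open Vale.Agent.P091.CH Vale.Agent.P091.CH.H847

variable {K : ℕ}

/-- the symmetric partial sum on the grid (253's `SG`) -/
noncomputable def SG (N : ℕ) (f : X K → ℂ) (x : X K) : ℂ :=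
  ∑ k ∈ Icc (-(N : ℤ)) (N : ℤ), fc f k * ch k x

theorem fc_mod (f : X K → ℂ) (M ξ : ℤ) : fc (fun x => ch M x * f x) ξ = fc f (ξ - M) := by
  unfold fc aveC
  congr 1
  refine Finset.sum_congr rfl fun x _ => ?_
  have h : ch (-(ξ - M)) x = ch M x * ch (-ξ) x := by
    rw [← ch_add]
    congr 1
    ring
  simp only [h]
  ring

theorem conj_fc (p : X K → ℝ) (k : ℤ) :
    (starRingEnd ℂ) (fc (fun x => (p x : ℂ)) k) = fc (fun x => (p x : ℂ)) (-k) := by
  unfold fc aveC
  rw [map_div₀, map_sum, map_pow, Complex.conj_ofNat]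
  congr 1
  refine Finset.sum_congr rfl fun x _ => ?_
  rw [map_mul, conj_ch, Complex.conj_ofReal]

theorem conj_term (p : X K → ℝ) (k : ℤ) (x : X K) :
    (starRingEnd ℂ) (fc (fun x => (p x : ℂ)) k * ch k x)
      = fc (fun x => (p x : ℂ)) (-k) * ch (-k) x := by
  rw [map_mul, conj_fc, conj_ch]

theorem conj_sum_Icc (p : X K → ℝ) (a b : ℤ) (x : X K) :
    (starRingEnd ℂ) (∑ k ∈ Icc a b, fc (fun x => (p x : ℂ)) k * ch k x)
      = ∑ k ∈ Icc (-b) (-a), fc (fun x => (p x : ℂ)) k * ch k x := by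
  rw [map_sum]
  refine Finset.sum_bij' (fun k _ => -k) (fun k _ => -k) ?_ ?_ ?_ ?_ ?_
  · intro k hk
    simp only [mem_Icc] at hk ⊢
    omega
  · intro k hk
    simp only [mem_Icc] at hk ⊢
    omega
  · intro k _; ring
  · intro k _; ring
  · intro k _
    exact conj_term p k x

/-- the one-sided sum of the modulated function -/
theorem CN_mod (f : X K → ℂ) (M N : ℤ) (h : M + N + 1 ≤ 2 ^ K) (x : X K) :
    ch (-M) x * CN (M + N + 1) (fun x => ch M x * f x) x
      = ∑ k ∈ Icc (-M) N, fc f k * ch k x := by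
  unfold CN mul
  have h1 : ∑ ξ ∈ win K, (if ξ < M + N + 1 then (1:ℂ) else 0) * fc (fun x => ch M x * f x) ξ * ch ξ x
      = ∑ ξ ∈ Ico 0 (M + N + 1), fc f (ξ - M) * ch ξ x := by
    have h2 : Ico 0 (M + N + 1) = (win K).filter (fun ξ => ξ < M + N + 1) := by
      ext ξ
      unfold win
      simp only [mem_Ico, mem_filter]
      constructor
      · rintro ⟨h3, h4⟩
        exact ⟨⟨h3, lt_of_lt_of_le h4 h⟩, h4⟩
      · rintro ⟨⟨h3, _⟩, h4⟩
        exact ⟨h3, h4⟩
    rw [h2, Finset.sum_filter]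
    refine Finset.sum_congr rfl fun ξ _ => ?_
    rw [fc_mod]
    split_ifs <;> ring
  rw [h1, Finset.mul_sum]
  refine Finset.sum_bij' (fun ξ _ => ξ - M) (fun k _ => k + M) ?_ ?_ ?_ ?_ ?_
  · intro ξ hξ
    simp only [mem_Icc, mem_Ico] at hξ ⊢
    omega
  · intro ξ hξ
    simp only [mem_Icc, mem_Ico] at hξ ⊢
    omega
  · intro k _; ring
  · intro k _; ring
  · intro ξ _
    rw [show ξ - M = -M + ξ by ring, ch_add]
    ring

/-- the full sum over `[-M, M)`, `2 M = 2^K`, is the function -/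
theorem sum_full (f : X K → ℂ) (M : ℤ) (hM : 2 * M = 2 ^ K) (x : X K) :
    ∑ k ∈ Ico (-M) M, fc f k * ch k x = f x := by
  have h1 := fou2 K (fun x => ch M x * f x) x
  have h2 : ∑ ξ ∈ win K, fc (fun x => ch M x * f x) ξ * ch ξ x
      = ch M x * ∑ k ∈ Ico (-M) M, fc f k * ch k x := by
    rw [Finset.mul_sum]
    unfold win
    refine Finset.sum_bij' (fun ξ _ => ξ - M) (fun k _ => k + M) ?_ ?_ ?_ ?_ ?_
    · intro ξ hξ
      simp only [mem_Ico] at hξ ⊢
      omega
    · intro ξ hξ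
      simp only [mem_Ico] at hξ ⊢
      omega
    · intro k _; ring
    · intro k _; ring
    · intro ξ _
      rw [fc_mod, show ch ξ x = ch M x * ch (ξ - M) x by rw [← ch_add]; congr 1; ring]
      ring
  rw [h2] at h1
  have h3 : ch M x ≠ 0 := by
    intro h
    have := norm_ch M x
    rw [h, norm_zero] at this
    exact zero_ne_one this
  exact (mul_left_cancel₀ h3 h1).symm

/-- **T1, exact form.** -/
theorem real_exact (p : X K → ℝ) (M : ℤ) (N : ℕ) (hM : 2 * M = 2 ^ K) (hN : (N : ℤ) < M) (x : X K) :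
    SG N (fun x => (p x : ℂ)) x
      = ((2 * (ch (-M) x * CN (M + N + 1) (fun x => ch M x * (p x : ℂ)) x).re : ℝ) : ℂ)
        - (p x : ℂ) - fc (fun x => (p x : ℂ)) M * ch M x := by
  have h0 : (0:ℤ) ≤ N := by positivity
  rw [CN_mod (fun x => (p x : ℂ)) M N (by omega) x]
  set F : ℤ → ℂ := fun k => fc (fun x => (p x : ℂ)) k * ch k x with hF
  have e1 : ((2 * (∑ k ∈ Icc (-M) (N:ℤ), F k).re : ℝ) : ℂ)
      = ∑ k ∈ Icc (-M) (N:ℤ), F k + ∑ k ∈ Icc (-(N:ℤ)) M, F k := by
    have := conj_sum_Icc p (-M) N x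
    rw [neg_neg] at this
    rw [← this]
    rw [Complex.add_conj]
  have e2 : ∑ k ∈ Icc (-(N:ℤ)) M, F k
      = ∑ k ∈ Icc (-(N:ℤ)) (N:ℤ), F k + ∑ k ∈ Icc ((N:ℤ) + 1) M, F k := by
    rw [← Finset.sum_union]
    · congr 1
      ext k
      simp only [mem_union, mem_Icc]
      omega
    · rw [Finset.disjoint_left]
      intro k hk
      simp only [mem_Icc] at hk ⊢
      omega
  have e3 : ∑ k ∈ Icc (-M) (N:ℤ), F k + ∑ k ∈ Icc ((N:ℤ) + 1) M, F k = (p x : ℂ) + F M := by
    rw [← sum_full (fun x => (p x : ℂ)) M hM x, ← Finset.sum_union]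
    · have h5 : Icc (-M) (N:ℤ) ∪ Icc ((N:ℤ) + 1) M = insert M (Ico (-M) M) := by
        ext k
        simp only [mem_union, mem_Icc, mem_insert, mem_Ico]
        omega
      rw [h5, Finset.sum_insert (by simp), add_comm]
    · rw [Finset.disjoint_left]
      intro k hk
      simp only [mem_Icc] at hk ⊢
      omega
  have e4 : SG N (fun x => (p x : ℂ)) x = ∑ k ∈ Icc (-(N:ℤ)) (N:ℤ), F k := rfl
  rw [e4, e1, e2]
  have : F M = fc (fun x => (p x : ℂ)) M * ch M x := rfl
  rw [← this]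
  linear_combination -e3

theorem ave_abs_le_MX (p : X K → ℝ) (x : X K) : ave (fun y => |p y|) ≤ MX p x := by
  unfold MX
  refine le_trans ?_ (Finset.le_sup' _ (Finset.mem_range.2 (Nat.succ_pos K)))
  have h : ∀ y : X K, nrm (x - y) ≤ ((2:ℝ) ^ 0)⁻¹ := by
    intro y
    have h1 : nrm (x - y) ≤ 1 / 2 := by
      unfold nrm
      have := AddCircle.norm_le_half_period (1:ℝ) (x := ZMod.toAddCircle (x - y)) one_ne_zero
      simpa using this
    norm_num
    linarith
  simp only [pow_zero, one_mul]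
  apply le_of_eq
  congr 1
  ext y
  rw [if_pos (by simpa using h y)]

theorem abs_le_MX (p : X K → ℝ) (x : X K) : |p x| ≤ MX p x := by
  unfold MX
  refine le_trans ?_ (Finset.le_sup' _ (Finset.mem_range.2 (Nat.lt_succ_self K)))
  unfold ave
  rw [mul_div_cancel₀ _ (by positivity)]
  refine le_trans ?_ (Finset.single_le_sum (f := fun y => if nrm (x - y) ≤ ((2:ℝ) ^ K)⁻¹ then |p y| else 0)
    ?_ (Finset.mem_univ x))
  · have : nrm (x - x) ≤ ((2:ℝ) ^ K)⁻¹ := by
      rw [sub_self]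
      unfold nrm
      rw [map_zero, norm_zero]
      positivity
    simp only [this, if_true, le_refl]
  · intro y _
    split_ifs
    · exact abs_nonneg _
    · exact le_rfl

theorem norm_fc_le (p : X K → ℝ) (k : ℤ) : ‖fc (fun x => (p x : ℂ)) k‖ ≤ ave (fun y => |p y|) := by
  unfold fc aveC ave
  rw [norm_div, norm_pow, Complex.norm_ofNat]
  gcongr
  refine (norm_sum_le _ _).trans ?_
  refine le_of_eq (Finset.sum_congr rfl fun y _ => ?_)
  rw [norm_mul, norm_ch, mul_one, Complex.norm_real, Real.norm_eq_abs]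

/-- **T1.** the symmetric partial sum is `2 Re` of a one-sided one, up to `2 MX p`. -/
theorem real_trick (p : X K → ℝ) (M : ℤ) (N : ℕ) (hM : 2 * M = 2 ^ K) (hN : (N : ℤ) < M) (x : X K) :
    ‖SG N (fun x => (p x : ℂ)) x
      - ((2 * (ch (-M) x * CN (M + N + 1) (fun x => ch M x * (p x : ℂ)) x).re : ℝ) : ℂ)‖
      ≤ 2 * MX p x := by
  rw [real_exact p M N hM hN x]
  have h : ∀ a b c : ℂ, a - b - c - a = -b - c := by intro a b c; ring
  rw [h]
  refine (norm_sub_le _ _).trans ?_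
  rw [norm_neg, norm_mul, norm_ch, mul_one, Complex.norm_real, Real.norm_eq_abs]
  have := abs_le_MX p x
  have h2 := ave_abs_le_MX p x
  have h3 := norm_fc_le p M
  linarith

theorem norm_SG_le (p : X K → ℝ) (M : ℤ) (N : ℕ) (hM : 2 * M = 2 ^ K) (hN : (N : ℤ) < M) (x : X K) :
    ‖SG N (fun x => (p x : ℂ)) x‖
      ≤ 2 * |(ch (-M) x * CN (M + N + 1) (fun x => ch M x * (p x : ℂ)) x).re| + 2 * MX p x := by
  have h1 := real_trick p M N hM hN x
  have h2 := norm_sub_norm_le (SG N (fun x => (p x : ℂ)) x)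
    ((2 * (ch (-M) x * CN (M + N + 1) (fun x => ch M x * (p x : ℂ)) x).re : ℝ) : ℂ)
  rw [Complex.norm_real, Real.norm_eq_abs, abs_mul, abs_two] at h2
  linarith

end Vale.Agent.P091.TOP.H39
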