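import Vale.Agent.P091.PET.H514.Avg

/-!
# P091, SWITCH (S5): averaging the TRUNCATED shifts over the grids of the long family
-/

open Finset

namespace Vale.Agent.P091.TOP.H39

open Vale.Agent.P091.PET

theorem emod_sub_eq {L : ℤ} (x : ℤ) {a a' : ℤ} (h : L ∣ a - a') : (x - a) % L = (x - a') % L := by
  have h1 : (x - a) ≡ (x - a') [ZMOD L] := by
    apply Int.modEq_iff_dvd.2
    rw [show x - a' - (x - a) = a - a' by ring]
    exact h
  exact h1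

/-- the shift of one scale is periodic in the offset -/
theorem T_period {q a a' : ℤ} (h : (4 * q) ∣ (a - a')) (F : ℤ → ℂ) (x : ℤ) :
    T q a F x = T q a' F x := by
  unfold T
  rw [emod_sub_eq x h]

/-- the truncated shift is periodic in the offset with the length of its longest interval -/
theorem Sh_period {r κ : ℕ} {a a' : ℤ} (h : ((r:ℤ) * 2 ^ (κ + 1)) ∣ (a - a')) (F : ℤ → ℂ)
    (x : ℤ) : Sh r κ a F x = Sh r κ a' F x := by
  unfold Sh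
  refine sum_congr rfl fun i hi => T_period ?_ F x
  refine dvd_trans ?_ h
  have hi' := mem_range.1 hi
  refine ⟨2 ^ (κ - 1 - i), ?_⟩
  have : κ + 1 = (κ - 1 - i) + i + 2 := by omega
  rw [this, pow_add, pow_add]
  ring

/-- sums over long offset ranges reduce to the short one -/
theorem sum_Sh {r κ : ℕ} (hr : 0 < r) (m : ℕ) (hm : κ ≤ m) (F : ℤ → ℂ) (x : ℤ) :
    ∑ a ∈ Ico (0:ℤ) ((r:ℤ) * 2 ^ (m + 1)), Sh r κ a F x
      = 2 ^ (m - κ) * ∑ a ∈ Ico (0:ℤ) ((r:ℤ) * 2 ^ (κ + 1)), Sh r κ a F x := by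
  set L : ℤ := (r:ℤ) * 2 ^ (κ + 1) with hL
  have hL0 : 0 < L := by positivity
  have key : ∀ a : ℤ, Sh r κ a F x = (fun w => Sh r κ (x - w) F x) ((x - a) % L) := by
    intro a
    refine Sh_period ?_ F x
    rw [← hL]
    have h1 : (x - a) % L = (x - a) - L * ((x - a) / L) := by
      have := Int.emod_add_mul_ediv (x - a) L
      linarith
    rw [h1]
    exact ⟨-((x - a) / L), by ring⟩
  have e1 : (r:ℤ) * 2 ^ (m + 1) = ((2 ^ (m - κ) : ℕ) : ℤ) * L := by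
    rw [hL]
    push_cast
    have : m + 1 = (m - κ) + (κ + 1) := by omega
    rw [this, pow_add]
    ring
  have h2 := sum_mod_mul hL0 x (fun w => Sh r κ (x - w) F x) (2 ^ (m - κ))
  have h3 := sum_mod hL0 x (fun w => Sh r κ (x - w) F x)
  rw [← h3] at h2
  have h4 : ∀ s : Finset ℤ, ∑ a ∈ s, Sh r κ a F x
      = ∑ a ∈ s, (fun w => Sh r κ (x - w) F x) ((x - a) % L) :=
    fun s => sum_congr rfl fun a _ => key a
  rw [e1, h4, h4, h2]
  push_cast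
  rfl

/-- **S5.** The average over ALL grids of the family with top length `r 2^(m+1)` of the shifts
truncated to the levels `i < κ` is the convolution with `PP R κ / 16`. -/
theorem avg_Sh_trunc (R m κ : ℕ) (hκ : κ ≤ m) (F : ℤ → ℂ) (x : ℤ) {B : ℤ}
    (hB : 4 * (R:ℤ) * 2 ^ κ ≤ B) :
    ∑ k ∈ range R, ∑ a ∈ Ico (0:ℤ) (((R + k : ℕ) : ℤ) * 2 ^ (m + 1)),
      ((1 / (((R + k : ℕ) : ℝ) * (((R + k : ℕ) : ℝ) * 2 ^ (m + 1))) : ℝ) : ℂ) * Sh (R + k) κ a F x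
      = ∑ t ∈ Ioo (-B) B, ((PP R κ t / 16 : ℝ) : ℂ) * F (x - t) := by
  rw [← avg_Sh R κ F x hB]
  refine sum_congr rfl fun k hk => ?_
  have hk' := mem_range.1 hk
  have hr : 0 < R + k := by omega
  have hr' : ((R + k : ℕ) : ℝ) ≠ 0 := by exact_mod_cast hr.ne'
  generalize R + k = r at *
  rw [← mul_sum, ← mul_sum, sum_Sh hr m hκ, ← mul_assoc]
  congr 1
  have e2 : (2:ℂ) ^ (m - κ) = (((2:ℝ) ^ (m - κ) : ℝ) : ℂ) := by push_cast; rfl
  rw [e2, ← Complex.ofReal_mul]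
  congr 1
  have : m + 1 = (m - κ) + (κ + 1) := by omega
  rw [this, pow_add]
  field_simp

/-- the total weight of the family of grids is `∑_{k<R} 1/(R+k)`, at most `1` -/
theorem weight_le (R m : ℕ) :
    ∑ k ∈ range R, ∑ _a ∈ Ico (0:ℤ) (((R + k : ℕ) : ℤ) * 2 ^ (m + 1)),
      (1 / (((R + k : ℕ) : ℝ) * (((R + k : ℕ) : ℝ) * 2 ^ (m + 1))) : ℝ) ≤ 1 := by
  have h1 : ∀ k ∈ range R, ∑ _a ∈ Ico (0:ℤ) (((R + k : ℕ) : ℤ) * 2 ^ (m + 1)),
      (1 / (((R + k : ℕ) : ℝ) * (((R + k : ℕ) : ℝ) * 2 ^ (m + 1))) : ℝ) ≤ 1 / R := by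
    intro k hk
    have hk' := mem_range.1 hk
    have hR : (0:ℝ) < R := by exact_mod_cast (by omega : 0 < R)
    rw [sum_const, nsmul_eq_mul, Int.card_Ico, sub_zero]
    have e : (((((R + k : ℕ) : ℤ) * 2 ^ (m + 1)).toNat : ℕ) : ℝ)
        = ((R + k : ℕ) : ℝ) * 2 ^ (m + 1) := by
      have h2 : (0:ℤ) ≤ ((R + k : ℕ) : ℤ) * 2 ^ (m + 1) := by positivity
      have h3 : (((((R + k : ℕ) : ℤ) * 2 ^ (m + 1)).toNat : ℕ) : ℤ)
        = ((R + k : ℕ) : ℤ) * 2 ^ (m + 1) := Int.toNat_of_nonneg h2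
      exact_mod_cast h3
    rw [e]
    have hr' : (0:ℝ) < ((R + k : ℕ) : ℝ) := by exact_mod_cast (by omega : 0 < R + k)
    have h4 : ((R + k : ℕ) : ℝ) * 2 ^ (m + 1) * (1 / (((R + k : ℕ) : ℝ) * (((R + k : ℕ) : ℝ) * 2 ^ (m + 1))))
        = 1 / ((R + k : ℕ) : ℝ) := by
      field_simp
    rw [h4]
    apply one_div_le_one_div_of_le hR
    push_cast
    have : (0:ℝ) ≤ k := by positivity
    linarith
  refine (sum_le_sum h1).trans ?_
  rw [sum_const, card_range, nsmul_eq_mul]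
  rcases Nat.eq_zero_or_pos R with h | h
  · subst h; simp
  · have : (R:ℝ) ≠ 0 := by exact_mod_cast h.ne'
    field_simp
    exact le_rfl

/-- absolute values inside the average -/
theorem norm_avg_le (R m κ : ℕ) (hκ : κ ≤ m) (F : ℤ → ℂ) (x : ℤ) {B : ℤ}
    (hB : 4 * (R:ℤ) * 2 ^ κ ≤ B) :
    ‖∑ t ∈ Ioo (-B) B, ((PP R κ t : ℝ) : ℂ) * F (x - t)‖ ≤
      16 * ∑ k ∈ range R, ∑ a ∈ Ico (0:ℤ) (((R + k : ℕ) : ℤ) * 2 ^ (m + 1)),
      (1 / (((R + k : ℕ) : ℝ) * (((R + k : ℕ) : ℝ) * 2 ^ (m + 1))) : ℝ) * ‖Sh (R + k) κ a F x‖ := by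
  have h1 : ∑ t ∈ Ioo (-B) B, ((PP R κ t : ℝ) : ℂ) * F (x - t)
      = 16 * ∑ t ∈ Ioo (-B) B, ((PP R κ t / 16 : ℝ) : ℂ) * F (x - t) := by
    rw [mul_sum]
    refine sum_congr rfl fun t _ => ?_
    push_cast
    ring
  rw [h1, ← avg_Sh_trunc R m κ hκ F x hB, norm_mul, Complex.norm_ofNat]
  gcongr
  refine (norm_sum_le _ _).trans (sum_le_sum fun k _ => ?_)
  refine (norm_sum_le _ _).trans (sum_le_sum fun a _ => ?_)
  rw [norm_mul, Complex.norm_real, Real.norm_eq_abs, abs_of_nonneg (by positivity)]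

end Vale.Agent.P091.TOP.H39
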