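import Vale.Agent.P091.TOP.Props
import Vale.Agent.P091.TOP.H39.Real
import Vale.Agent.P091.TOP.H39.Trunc

/-!
# P091, SWITCH: the rows `P_S1` and `P_S5` in their literal form
-/

open Finset

namespace Vale.Agent.P091.TOP.H39

theorem s1 : P_S1 := by
  intro K N p x hK _ hN
  have hM : 2 * MM K = 2 ^ K := by
    unfold MM
    have : K = (K - 1) + 1 := by omega
    conv_rhs => rw [this]
    rw [pow_succ]
    ring
  have hN' : (N : ℤ) < MM K := by
    have h1 : (8:ℤ) * (N + 1) ≤ 2 ^ K := by exact_mod_cast hN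
    omega
  have h := real_trick p (MM K) N hM hN' x
  have e1 : MM K + (N : ℤ) + 1 = N1 K N := by
    unfold N1
    ring
  rw [e1] at h
  exact h

theorem s5 : P_S5 := by
  intro R kap m F x B _ hkm hB
  exact avg_Sh_trunc R m kap hkm F x hB

end Vale.Agent.P091.TOP.H39
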