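import Vale.Agent.P091.CH.H66.LightN
import Vale.Agent.P091.CH.H43.Msu

/-!
# P091, TOP, lemma (CAP): the stopping level `κ x` and the heavy tile of `x`
-/

open Finset

namespace Vale.Agent.P091.TOP.H39

open Vale.Agent.P091.CH

variable {K : ℕ}

theorem mu_univ (K : ℕ) : mu (Finset.univ : Finset (X K)) = 1 := by
  unfold mu
  rw [Finset.card_univ, ZMod.card]
  push_cast
  exact div_self (by positivity)

/-- the tiles of the points, all levels -/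
def ptl (K : ℕ) (N : X K → ℤ) : Finset Tile :=
  (range (K + 1)).biUnion fun k => if k + 6 ≤ K then univ.image (fun x : X K => tlx k N x) else ∅

theorem mem_ptl (N : X K → ℤ) {k : ℕ} (hk : k + 6 ≤ K) (x : X K) : tlx k N x ∈ ptl K N := by
  unfold ptl
  rw [mem_biUnion]
  refine ⟨k, mem_range.2 (by omega), ?_⟩
  rw [if_pos hk]
  exact mem_image_of_mem _ (mem_univ x)

theorem tlx_ok (N : X K → ℤ) (hN : ∀ x, 2 ^ K ≤ 4 * N x ∧ 4 * N x < 3 * 2 ^ K) {k : ℕ}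
    (hk : k + 6 ≤ K) (x : X K) : (tlx k N x).Ok K := by
  have h1 : (2:ℤ) ^ K = 2 ^ (K - 2 - k) * 2 ^ k * 4 := by
    have : K = (K - 2 - k) + k + 2 := by omega
    conv_lhs => rw [this, pow_add, pow_add]
    norm_num
  have h2 : (0:ℤ) < 2 ^ k := by positivity
  obtain ⟨h3, h4⟩ := hN x
  refine ⟨hk, ?_, ?_, ?_⟩
  · show x.val / 2 ^ (K - k) < 2 ^ k
    rw [Nat.div_lt_iff_lt_mul (by positivity), ← pow_add]
    have : k + (K - k) = K := by omega
    rw [this]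
    exact ZMod.val_lt x
  · show (2:ℤ) ^ K ≤ 4 * (N x / 2 ^ k * 2 ^ k)
    have h5 : 2 ^ (K - 2 - k) ≤ N x / 2 ^ k := by
      rw [Int.le_ediv_iff_mul_le h2]
      rw [h1] at h3
      linarith
    rw [h1]
    nlinarith
  · show 4 * ((N x / 2 ^ k + 1) * 2 ^ k) ≤ 3 * 2 ^ K
    have h5 : N x / 2 ^ k < 3 * 2 ^ (K - 2 - k) := by
      rw [Int.ediv_lt_iff_lt_mul h2]
      rw [h1] at h4
      linarith
    rw [h1]
    nlinarith

/-- distance between the letter of a dominating tile and `N x` -/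
theorem letter_dist {N l : ℤ} {k κ : ℕ} (hk : k ≤ κ) (h : |l / 2 ^ (κ - k) - N / 2 ^ κ| ≤ 11) :
    |N - l * 2 ^ k| ≤ 12 * 2 ^ κ := by
  have h0 : (0:ℤ) < 2 ^ κ := by positivity
  have h0' : (0:ℤ) < 2 ^ (κ - k) := by positivity
  have h0'' : (0:ℤ) < 2 ^ k := by positivity
  have e : (2:ℤ) ^ κ = 2 ^ (κ - k) * 2 ^ k := by
    rw [← pow_add]
    congr 1
    omega
  have a1 := Int.mul_ediv_self_le (x := N) (k := 2 ^ κ) h0.ne'
  have a2 := Int.lt_mul_ediv_self_add (x := N) h0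
  have b1 := Int.mul_ediv_self_le (x := l) (k := 2 ^ (κ - k)) h0'.ne'
  have b2 := Int.lt_mul_ediv_self_add (x := l) h0'
  set q := l / 2 ^ (κ - k) with hq
  set m := N / 2 ^ κ with hm
  have c1 : 2 ^ κ * q ≤ l * 2 ^ k := by
    rw [e]; nlinarith
  have c2 : l * 2 ^ k < 2 ^ κ * q + 2 ^ κ := by
    rw [e]; nlinarith
  rw [abs_le] at h ⊢
  obtain ⟨h1, h2⟩ := h
  constructor
  · nlinarith
  · nlinarith

theorem div_lev {K k t : ℕ} (v : ℕ) (h1 : k ≤ t) (h2 : t ≤ K) :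
    v / 2 ^ (K - t) / 2 ^ (t - k) = v / 2 ^ (K - k) := by
  rw [Nat.div_div_eq_div_mul, ← pow_add]
  congr 2
  omega

open Classical in
/-- **(CAP)** -/
theorem cap (h : P_MSU) : ∃ C : ℝ, ∀ (K : ℕ) (N : X K → ℤ) (δ : ℝ) (c : ℕ), c + 6 ≤ K → 0 < δ →
    (∀ x, 2 ^ K ≤ 4 * N x ∧ 4 * N x < 3 * 2 ^ K) →
    ∃ (U : Finset Tile) (κ : X K → ℕ),
      (∀ u ∈ U, u.k + 6 ≤ K ∧ u.j < 2 ^ u.k ∧ δ * u.len < dens univ N u) ∧
      (∑ u ∈ U, u.len) * δ ≤ C ∧ (∀ x, κ x ≤ c) ∧ StopLe univ N κ δ ∧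
      ∀ x, κ x < c → ∃ u ∈ U, u.k ≤ κ x ∧ x.val / 2 ^ (K - u.k) = u.j ∧
        |N x - u.l * 2 ^ u.k| ≤ 12 * 2 ^ (κ x) := by
  obtain ⟨C, hC⟩ := h
  refine ⟨C, fun K N δ c hc hδ hN => ?_⟩
  have hP : ∀ s ∈ ptl K N, s.Ok K := by
    intro s hs
    unfold ptl at hs
    rw [mem_biUnion] at hs
    obtain ⟨k, -, hs⟩ := hs
    split_ifs at hs with h6
    · rw [mem_image] at hs
      obtain ⟨x, -, rfl⟩ := hs
      exact tlx_ok N hN h6 x
    · simp at hs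
  obtain ⟨U, hU1, hU2, hU3⟩ := hC K univ N (ptl K N) δ hP hδ
  rw [mu_univ, mul_one] at hU3
  let Q : X K → ℕ → Prop := fun x k => c ≤ k ∨ ∃ u ∈ U, Dom (tlx k N x) u
  have hex : ∀ x, ∃ k, Q x k := fun x => ⟨c, Or.inl le_rfl⟩
  refine ⟨U, fun x => Nat.find (hex x), hU1, hU3, ?_, ?_, ?_⟩
  · intro x
    exact Nat.find_min' (hex x) (Or.inl le_rfl)
  · intro x _ k hk u hu
    have h1 := Nat.find_min (hex x) hk
    have h2 : k < c ∧ ¬ ∃ u ∈ U, Dom (tlx k N x) u := by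
      constructor
      · by_contra h3
        exact h1 (Or.inl (not_lt.1 h3))
      · intro h3
        exact h1 (Or.inr h3)
    rcases hU2 (tlx k N x) (mem_ptl N (by omega) x) with h3 | h3
    · exact h3 u hu
    · exact absurd h3 h2.2
  · intro x hx
    have h1 := Nat.find_spec (hex x)
    rcases h1 with h1 | ⟨u, hu, hd⟩
    · exact absurd hx (not_lt.2 h1)
    · refine ⟨u, hu, hd.1, ?_, ?_⟩
      · have h3 : u.k ≤ Nat.find (hex x) := hd.1
        have h5 : Nat.find (hex x) ≤ K := by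
          have : Nat.find (hex x) < c := hx
          omega
        exact (div_lev x.val h3 h5).symm.trans hd.2.1
      · exact letter_dist hd.1 hd.2.2

end Vale.Agent.P091.TOP.H39
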